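import Vale.Agent.P181.R2.H553.CDefs
import Vale.Agent.P181.R2.H959.FMul

/-!
Row C7: every class of gaps.
-/

set_option autoImplicit false

namespace Vale.Agent.P181.H911

open Vale.Agent.P181 Vale.Agent.P181.H280 Vale.Agent.P181.H179 Vale.Agent.P181.FR

/-- Positivity of the weight with gaps `k1`, `k2`. -/
def GP (P : ℕ → ℕ → (Fin 3 → ℕ) → Prop) (b c k1 k2 : ℕ) : Prop :=
  ∃ k3 : ℕ, k1 + 2 * k2 + 3 * k3 = c * b ∧ P b c ![k3 + k2 + k1, k3 + k2, k3]

section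

variable {P : ℕ → ℕ → (Fin 3 → ℕ) → Prop}

theorem GP.mul (hmul : ∀ (B B' a : ℕ) (mu mu' : Fin 3 → ℕ), P B a mu → P B' a mu' →
    P (B + B') a (mu + mu')) {b b' c k1 k2 k1' k2' : ℕ} (h : GP P b c k1 k2)
    (h' : GP P b' c k1' k2') : GP P (b + b') c (k1 + k1') (k2 + k2') := by
  obtain ⟨x, hx, h1⟩ := h
  obtain ⟨y, hy, h2⟩ := h'
  refine ⟨x + y, by rw [mul_add c b b', ← hx, ← hy]; ring, ?_⟩
  have h3 := hmul _ _ _ _ _ h1 h2
  have e : (![x + k2 + k1, x + k2, x] : Fin 3 → ℕ) + ![y + k2' + k1', y + k2', y] =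
      ![x + y + (k2 + k2') + (k1 + k1'), x + y + (k2 + k2'), x + y] := by
    ext i; fin_cases i <;> simp <;> ring
  rwa [e] at h3

theorem GP.pt (hpt : ∀ (B e c : ℕ) (mu lam : Fin 3 → ℕ), P B e mu → P B c lam →
    P B (e + c) (mu + lam)) {b e c k1 k2 k1' k2' : ℕ} (h : GP P b e k1 k2)
    (h' : GP P b c k1' k2') : GP P b (e + c) (k1 + k1') (k2 + k2') := by
  obtain ⟨x, hx, h1⟩ := h
  obtain ⟨y, hy, h2⟩ := h'
  refine ⟨x + y, by rw [add_mul e c b, ← hx, ← hy]; ring, ?_⟩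
  have h3 := hpt _ _ _ _ _ h1 h2
  have e : (![x + k2 + k1, x + k2, x] : Fin 3 → ℕ) + ![y + k2' + k1', y + k2', y] =
      ![x + y + (k2 + k2') + (k1 + k1'), x + y + (k2 + k2'), x + y] := by
    ext i; fin_cases i <;> simp <;> ring
  rwa [e] at h3

theorem GP.fill (hev : ∀ (b n : ℕ), 3 ≤ b → ∀ nu : Fin 3 → ℕ, nu 2 ≤ nu 1 → nu 1 ≤ nu 0 →
    nu 0 + nu 1 + nu 2 = b * n → P b (2 * n) (fun i => 2 * nu i)) {b n : ℕ} (hb : 3 ≤ b)
    (h3 : 3 ∣ b) : GP P b (2 * n) 0 0 := by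
  obtain ⟨t, rfl⟩ := h3
  refine ⟨2 * (t * n), by ring, ?_⟩
  have h1 := hev (3 * t) n hb (fun _ => t * n) le_rfl le_rfl (by ring)
  have e : (![2 * (t * n) + 0 + 0, 2 * (t * n) + 0, 2 * (t * n)] : Fin 3 → ℕ) =
      fun _ => 2 * (t * n) := by
    ext i; fin_cases i <;> simp
  rw [e]; exact h1

theorem GP.ev0 (hev : ∀ (b n : ℕ), 3 ≤ b → ∀ nu : Fin 3 → ℕ, nu 2 ≤ nu 1 → nu 1 ≤ nu 0 →
    nu 0 + nu 1 + nu 2 = b * n → P b (2 * n) (fun i => 2 * nu i)) {b : ℕ} (hb : 3 ≤ b) :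
    GP P b 0 0 0 := by
  refine ⟨0, by ring, ?_⟩
  have h1 := hev b 0 hb (fun _ => 0) le_rfl le_rfl (by ring)
  have e : (![0 + 0 + 0, 0 + 0, 0] : Fin 3 → ℕ) = fun _ => 2 * 0 := by
    ext i; fin_cases i <;> simp
  rw [e]; exact h1

theorem GP.odd (hmul : ∀ (B B' a : ℕ) (mu mu' : Fin 3 → ℕ), P B a mu → P B' a mu' →
    P (B + B') a (mu + mu')) (h4 : GP P 4 33 0 0) (h5 : GP P 5 33 0 0) (b : ℕ) (hb : 12 ≤ b) :
    GP P b 33 0 0 := by
  induction b using Nat.strong_induction_on with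
  | _ b ih =>
    have h8 : GP P 8 33 0 0 := GP.mul hmul h4 h4
    have h9 : GP P 9 33 0 0 := GP.mul hmul h4 h5
    have h10 : GP P 10 33 0 0 := GP.mul hmul h5 h5
    by_cases h16 : 16 ≤ b
    · have h1 := GP.mul hmul (ih (b - 4) (by omega) (by omega)) h4
      have e : b - 4 + 4 = b := by omega
      rw [e] at h1
      exact h1
    · have hb' : b = 12 ∨ b = 13 ∨ b = 14 ∨ b = 15 := by omega
      rcases hb' with rfl | rfl | rfl | rfl
      · exact GP.mul hmul h8 h4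
      · exact GP.mul hmul h9 h4
      · exact GP.mul hmul h10 h4
      · exact GP.mul hmul h10 h5

theorem even_class (hmul : ∀ (B B' a : ℕ) (mu mu' : Fin 3 → ℕ), P B a mu → P B' a mu' →
      P (B + B') a (mu + mu'))
    (hpt : ∀ (B e c : ℕ) (mu lam : Fin 3 → ℕ), P B e mu → P B c lam → P B (e + c) (mu + lam))
    (hev : ∀ (b n : ℕ), 3 ≤ b → ∀ nu : Fin 3 → ℕ, nu 2 ≤ nu 1 → nu 1 ≤ nu 0 →
      nu 0 + nu 1 + nu 2 = b * n → P b (2 * n) (fun i => 2 * nu i))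
    (h520 : GP P 5 20 1 0) (h516 : GP P 5 16 0 1) (h710 : GP P 7 10 1 0) (h78 : GP P 7 8 0 1)
    {b g1 g2 : ℕ} (hb : 30 ≤ b) (h : b % 3 = 0 → g1 % 3 = g2 % 3) :
    ∃ c k1 k2 : ℕ, c ≤ 36 ∧ c % 2 = 0 ∧ k1 ≤ g1 ∧ k2 ≤ g2 ∧ k1 % 2 = g1 % 2 ∧
      k2 % 2 = g2 % 2 ∧ GP P b c k1 k2 := by
  have key : ∀ {b0 c k1 k2 : ℕ}, GP P b0 (2 * c) k1 k2 → b0 + 3 ≤ b → (b - b0) % 3 = 0 →
      GP P b (2 * c) k1 k2 := by
    intro b0 c k1 k2 h0 hb0 h3
    have h1 := GP.mul hmul h0 (GP.fill hev (b := b - b0) (n := c) (by omega)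
      (Nat.dvd_of_mod_eq_zero h3))
    have e : b0 + (b - b0) = b := by omega
    rw [e] at h1
    exact h1
  have hz : GP P b 0 0 0 := GP.ev0 hev (by omega)
  rcases Nat.mod_two_eq_zero_or_one g1 with p1 | p1 <;>
    rcases Nat.mod_two_eq_zero_or_one g2 with p2 | p2
  · exact ⟨0, 0, 0, by omega, by omega, by omega, by omega, by omega, by omega, hz⟩
  · -- (0,1)
    have hb3 : b % 3 = 0 ∨ b % 3 = 1 ∨ b % 3 = 2 := by omega
    rcases hb3 with h3 | h3 | h3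
    · have hh := h h3
      have h03 : GP P b 16 0 3 := key (c := 8)
        (GP.mul hmul (GP.mul hmul h516 h516) h516) (by omega) (by omega)
      by_cases h2 : 3 ≤ g2
      · exact ⟨16, 0, 3, by omega, by omega, by omega, by omega, by omega, by omega, h03⟩
      · have h12 : GP P 12 16 1 1 := GP.mul hmul (GP.pt hpt h710
          (e := 10) (c := 6) (k1' := 0) (k2' := 0) ⟨14, by norm_num, by
            have := hev 7 3 (by omega) (fun _ => 7) le_rfl le_rfl (by norm_num)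
            have e : (![14 + 0 + 0, 14 + 0, 14] : Fin 3 → ℕ) = fun _ => 2 * 7 := by
              ext i; fin_cases i <;> simp
            rw [e]; exact this⟩) h516
        have h11 : GP P b 16 1 1 := key (c := 8) h12 (by omega) (by omega)
        have h30 : GP P b 20 3 0 := key (c := 10)
          (GP.mul hmul (GP.mul hmul h520 h520) h520) (by omega) (by omega)
        have h41 : GP P b 36 4 1 := GP.pt hpt h11 h30
        exact ⟨36, 4, 1, by omega, by omega, by omega, by omega, by omega, by omega, h41⟩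
    · exact ⟨8, 0, 1, by omega, by omega, by omega, by omega, by omega, by omega,
        key (c := 4) h78 (by omega) (by omega)⟩
    · exact ⟨16, 0, 1, by omega, by omega, by omega, by omega, by omega, by omega,
        key (c := 8) h516 (by omega) (by omega)⟩
  · -- (1,0)
    have hb3 : b % 3 = 0 ∨ b % 3 = 1 ∨ b % 3 = 2 := by omega
    rcases hb3 with h3 | h3 | h3
    · have hh := h h3
      have h30 : GP P b 20 3 0 := key (c := 10)
          (GP.mul hmul (GP.mul hmul h520 h520) h520) (by omega) (by omega)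
      by_cases h2 : 3 ≤ g1
      · exact ⟨20, 3, 0, by omega, by omega, by omega, by omega, by omega, by omega, h30⟩
      · have h12 : GP P 12 16 1 1 := GP.mul hmul (GP.pt hpt h710
          (e := 10) (c := 6) (k1' := 0) (k2' := 0) ⟨14, by norm_num, by
            have := hev 7 3 (by omega) (fun _ => 7) le_rfl le_rfl (by norm_num)
            have e : (![14 + 0 + 0, 14 + 0, 14] : Fin 3 → ℕ) = fun _ => 2 * 7 := by
              ext i; fin_cases i <;> simp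
            rw [e]; exact this⟩) h516
        have h11 : GP P b 16 1 1 := key (c := 8) h12 (by omega) (by omega)
        have h03 : GP P b 16 0 3 := key (c := 8)
          (GP.mul hmul (GP.mul hmul h516 h516) h516) (by omega) (by omega)
        have h14 : GP P b 32 1 4 := GP.pt hpt h11 h03
        exact ⟨32, 1, 4, by omega, by omega, by omega, by omega, by omega, by omega, h14⟩
    · exact ⟨10, 1, 0, by omega, by omega, by omega, by omega, by omega, by omega,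
        key (c := 5) h710 (by omega) (by omega)⟩
    · exact ⟨20, 1, 0, by omega, by omega, by omega, by omega, by omega, by omega,
        key (c := 10) h520 (by omega) (by omega)⟩
  · -- (1,1)
    have hb3 : b % 3 = 0 ∨ b % 3 = 1 ∨ b % 3 = 2 := by omega
    rcases hb3 with h3 | h3 | h3
    · have h12 : GP P 12 16 1 1 := GP.mul hmul (GP.pt hpt h710
          (e := 10) (c := 6) (k1' := 0) (k2' := 0) ⟨14, by norm_num, by
            have := hev 7 3 (by omega) (fun _ => 7) le_rfl le_rfl (by norm_num)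
            have e : (![14 + 0 + 0, 14 + 0, 14] : Fin 3 → ℕ) = fun _ => 2 * 7 := by
              ext i; fin_cases i <;> simp
            rw [e]; exact this⟩) h516
      exact ⟨16, 1, 1, by omega, by omega, by omega, by omega, by omega, by omega,
        key (c := 8) h12 (by omega) (by omega)⟩
    · have h1 : GP P b 10 1 0 := key (c := 5) h710 (by omega) (by omega)
      have h2 : GP P b 8 0 1 := key (c := 4) h78 (by omega) (by omega)
      exact ⟨18, 1, 1, by omega, by omega, by omega, by omega, by omega, by omega,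
        GP.pt hpt h1 h2⟩
    · have h1 : GP P b 20 1 0 := key (c := 10) h520 (by omega) (by omega)
      have h2 : GP P b 16 0 1 := key (c := 8) h516 (by omega) (by omega)
      exact ⟨36, 1, 1, by omega, by omega, by omega, by omega, by omega, by omega,
        GP.pt hpt h1 h2⟩

theorem class_of (hmul : ∀ (B B' a : ℕ) (mu mu' : Fin 3 → ℕ), P B a mu → P B' a mu' →
      P (B + B') a (mu + mu'))
    (hpt : ∀ (B e c : ℕ) (mu lam : Fin 3 → ℕ), P B e mu → P B c lam → P B (e + c) (mu + lam))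
    (hev : ∀ (b n : ℕ), 3 ≤ b → ∀ nu : Fin 3 → ℕ, nu 2 ≤ nu 1 → nu 1 ≤ nu 0 →
      nu 0 + nu 1 + nu 2 = b * n → P b (2 * n) (fun i => 2 * nu i))
    (h4 : ∀ n : ℕ, P 4 (3 * n) (fun _ => 4 * n)) (h533 : P 5 33 ![55, 55, 55])
    (h520 : P 5 20 ![34, 33, 33]) (h516 : P 5 16 ![27, 27, 26])
    (h710 : P 7 10 ![24, 23, 23]) (h78 : P 7 8 ![19, 19, 18])
    {a b g1 g2 l3 : ℕ} (hb : 30 ≤ b) (h : g1 + 2 * g2 + 3 * l3 = a * b) :
    ∃ c k1 k2 k3 : ℕ, c ≤ 69 ∧ c % 2 = a % 2 ∧ k1 ≤ g1 ∧ k2 ≤ g2 ∧ k1 % 2 = g1 % 2 ∧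
      k2 % 2 = g2 % 2 ∧ k1 + 2 * k2 + 3 * k3 = c * b ∧
      P b c ![k3 + k2 + k1, k3 + k2, k3] := by
  have hG4 : GP P 4 33 0 0 := ⟨44, by norm_num, by
    have h1 := h4 11
    have e : (![44 + 0 + 0, 44 + 0, 44] : Fin 3 → ℕ) = fun _ => 4 * 11 := by
      ext i; fin_cases i <;> simp
    rw [e]; exact h1⟩
  have hG5 : GP P 5 33 0 0 := ⟨55, by norm_num, h533⟩
  have hg : b % 3 = 0 → g1 % 3 = g2 % 3 := by
    intro h3
    obtain ⟨t, rfl⟩ := Nat.dvd_of_mod_eq_zero h3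
    have e : a * (3 * t) = 3 * (a * t) := by ring
    rw [e] at h
    generalize a * t = s at h
    omega
  obtain ⟨c, k1, k2, hc, hc2, h1, h2, p1, p2, k3, hk, hP⟩ := even_class hmul hpt hev
    ⟨33, by norm_num, h520⟩ ⟨26, by norm_num, h516⟩ ⟨23, by norm_num, h710⟩
    ⟨18, by norm_num, h78⟩ hb hg
  rcases Nat.mod_two_eq_zero_or_one a with pa | pa
  · exact ⟨c, k1, k2, k3, by omega, by omega, h1, h2, p1, p2, hk, hP⟩
  · have h3 : GP P b (c + 33) (k1 + 0) (k2 + 0) :=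
      GP.pt hpt ⟨k3, hk, hP⟩ (GP.odd hmul hG4 hG5 b (by omega))
    obtain ⟨k3', hk', hP'⟩ := h3
    exact ⟨c + 33, k1, k2, k3', by omega, by omega, h1, h2, p1, p2, hk', hP'⟩

end

/-- Row C7 from the other rows. -/
theorem pos_class_of
    (hpt : ∀ {B e c : ℕ} {lam mu : Fin 3 → ℕ}, Pos B e 3 mu → Pos B c 3 lam →
      Pos B (e + c) 3 (mu + lam))
    (hev : ∀ {b n : ℕ}, 3 ≤ b → ∀ nu : Fin 3 → ℕ, nu 2 ≤ nu 1 → nu 1 ≤ nu 0 →
      nu 0 + nu 1 + nu 2 = b * n → Pos b (2 * n) 3 (fun i => 2 * nu i))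
    (h4 : ∀ n : ℕ, Pos 4 (3 * n) 3 (fun _ => 4 * n)) (h533 : Pos 5 33 3 ![55, 55, 55])
    (h520 : Pos 5 20 3 ![34, 33, 33]) (h516 : Pos 5 16 3 ![27, 27, 26])
    (h710 : Pos 7 10 3 ![24, 23, 23]) (h78 : Pos 7 8 3 ![19, 19, 18])
    {a b g1 g2 l3 : ℕ} (hb : 30 ≤ b) (h : g1 + 2 * g2 + 3 * l3 = a * b) :
    ∃ c k1 k2 k3 : ℕ, c ≤ 69 ∧ c % 2 = a % 2 ∧ k1 ≤ g1 ∧ k2 ≤ g2 ∧ k1 % 2 = g1 % 2 ∧
      k2 % 2 = g2 % 2 ∧ k1 + 2 * k2 + 3 * k3 = c * b ∧
      Pos b c 3 ![k3 + k2 + k1, k3 + k2, k3] :=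
  class_of (P := fun B a mu => Pos B a 3 mu) (fun _ _ _ _ _ h h' => Pos.mul h h')
    (fun _ _ _ _ _ h h' => hpt h h') (fun _ _ hb nu h1 h2 h3 => hev hb nu h1 h2 h3)
    h4 h533 h520 h516 h710 h78 hb h

end Vale.Agent.P181.H911
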