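import Vale.Agent.P181.R2.H553.Defs

/-!
Rows 1c and 1d: products of highest weight functions, and their restriction to lines.
-/

set_option autoImplicit false

open scoped TensorProduct

namespace Vale.Agent.P181.H911

open Vale.Agent.P181 Vale.Agent.P181.H280 Vale.Agent.P181.H179 Vale.Agent.P181.H553

universe u

variable {W : Type u} [AddCommGroup W] [Module ℂ W]

/-- Products of elements of symmetric powers, on the level of evaluations. -/
lemma exists_prod {d₁ d₂ : ℕ} (x₁ : Sym[ℂ]^d₁ W) (x₂ : Sym[ℂ]^d₂ W) :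
    ∃ x : Sym[ℂ]^(d₁ + d₂) W, ∀ ξ : Module.Dual ℂ W,
      evalPow (d₁ + d₂) ξ x = evalPow d₁ ξ x₁ * evalPow d₂ ξ x₂ := by
  have h1 : x₁ ∈ Submodule.span ℂ (Set.range (SymmetricPower.tprod ℂ (ι := Fin d₁) (M := W))) := by
    rw [SymmetricPower.span_tprod_eq_top]; trivial
  have h2 : x₂ ∈ Submodule.span ℂ (Set.range (SymmetricPower.tprod ℂ (ι := Fin d₂) (M := W))) := by
    rw [SymmetricPower.span_tprod_eq_top]; trivial
  induction h1 using Submodule.span_induction with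
  | mem y hy =>
    obtain ⟨v, rfl⟩ := hy
    induction h2 using Submodule.span_induction with
    | mem z hz =>
      obtain ⟨w, rfl⟩ := hz
      refine ⟨SymmetricPower.tprod ℂ (Fin.append v w), fun ξ => ?_⟩
      rw [evalPow_tprod, evalPow_tprod, evalPow_tprod, Fin.prod_univ_add]
      simp only [Fin.append_left, Fin.append_right]
    | zero => exact ⟨0, fun ξ => by simp only [map_zero, mul_zero]⟩
    | add z z' _ _ h h' =>
      obtain ⟨x, hx⟩ := h
      obtain ⟨x', hx'⟩ := h'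
      exact ⟨x + x', fun ξ => by rw [map_add, map_add, hx, hx', mul_add]⟩
    | smul c z _ h =>
      obtain ⟨x, hx⟩ := h
      exact ⟨c • x, fun ξ => by
        rw [map_smul, map_smul, hx, smul_eq_mul, smul_eq_mul]; ring⟩
  | zero => exact ⟨0, fun ξ => by simp only [map_zero, zero_mul]⟩
  | add z z' _ _ h h' =>
    obtain ⟨x, hx⟩ := h
    obtain ⟨x', hx'⟩ := h'
    exact ⟨x + x', fun ξ => by rw [map_add, map_add, hx, hx', add_mul]⟩
  | smul c z _ h =>
    obtain ⟨x, hx⟩ := h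
    exact ⟨c • x, fun ξ => by
      rw [map_smul, map_smul, hx, smul_eq_mul, smul_eq_mul]; ring⟩

open Polynomial in
/-- Evaluations along a line of functionals are polynomials. -/
lemma exists_polynomial {b : ℕ} (x : Sym[ℂ]^b W) (ξ η : Module.Dual ℂ W) :
    ∃ P : ℂ[X], ∀ s : ℂ, evalPow b (ξ + s • η) x = P.eval s := by
  let L : W →ₗ[ℂ] ℂ[X] :=
    (Algebra.linearMap ℂ ℂ[X]) ∘ₗ ξ + (LinearMap.mulRight ℂ (X : ℂ[X])) ∘ₗ
      ((Algebra.linearMap ℂ ℂ[X]) ∘ₗ η)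
  have hL : ∀ v, L v = C (ξ v) + C (η v) * X := fun v => rfl
  let Q : Sym[ℂ]^b W →ₗ[ℂ] ℂ[X] :=
    symLift ((MultilinearMap.mkPiAlgebra ℂ (Fin b) ℂ[X]).compLinearMap (fun _ => L))
      (fun e v => by
        simp only [MultilinearMap.compLinearMap_apply, MultilinearMap.mkPiAlgebra_apply]
        exact Equiv.prod_comp e (fun i => L (v i)))
  have hQt : ∀ v : Fin b → W, Q (SymmetricPower.tprod ℂ v) = ∏ i, L (v i) := by
    intro v
    rw [symLift_tprod]
    simp only [MultilinearMap.compLinearMap_apply, MultilinearMap.mkPiAlgebra_apply]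
  refine ⟨Q x, fun s => ?_⟩
  have h2 : (Polynomial.leval s) ∘ₗ Q = evalPow b (ξ + s • η) := by
    apply sym_hom_ext
    intro v
    rw [LinearMap.comp_apply, hQt, evalPow_tprod, Polynomial.leval_apply,
      Polynomial.eval_prod]
    apply Finset.prod_congr rfl
    intro i _
    rw [hL, eval_add, eval_mul, eval_C, eval_C, eval_X, LinearMap.add_apply,
      LinearMap.smul_apply, smul_eq_mul, mul_comm]
  have h3 := LinearMap.congr_fun h2 x
  exact h3.symm

/-- Products of eigenvectors are eigenvectors. -/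
lemma prod_eigen [Module.Finite ℂ W] {d₁ d₂ : ℕ} (T : W →ₗ[ℂ] W) {x₁ : Sym[ℂ]^d₁ W}
    {x₂ : Sym[ℂ]^d₂ W} {x : Sym[ℂ]^(d₁ + d₂) W}
    (hx : ∀ ξ : Module.Dual ℂ W, evalPow (d₁ + d₂) ξ x = evalPow d₁ ξ x₁ * evalPow d₂ ξ x₂)
    {c₁ c₂ : ℂ} (g₁ : symMap d₁ T x₁ = c₁ • x₁) (g₂ : symMap d₂ T x₂ = c₂ • x₂) :
    symMap (d₁ + d₂) T x = (c₁ * c₂) • x := by
  have key : symMap (d₁ + d₂) T x - (c₁ * c₂) • x = 0 := by
    apply eq_zero_of_evalPow
    intro ξ
    have k := LinearMap.congr_fun (evalPow_symMap (b := d₁ + d₂) T ξ) x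
    have k₁ := LinearMap.congr_fun (evalPow_symMap (b := d₁) T ξ) x₁
    have k₂ := LinearMap.congr_fun (evalPow_symMap (b := d₂) T ξ) x₂
    rw [LinearMap.comp_apply] at k k₁ k₂
    rw [g₁, map_smul] at k₁
    rw [g₂, map_smul] at k₂
    rw [map_sub, k, map_smul, hx, hx, ← k₁, ← k₂, smul_eq_mul, smul_eq_mul, smul_eq_mul]
    ring
  exact sub_eq_zero.1 key

/-- The functional `ev a` is linear in the measure. -/
lemma ev_add_smul (a : ℕ) (c c' : Meas) (τ : ℂ) :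
    ev a (c + τ • c') = ev a c + τ • ev a c' := by
  have h : ∀ c : Meas, ev a c =
      Finsupp.linearCombination ℂ (fun p : Pt => evalPow a (lin p)) c := fun c => rfl
  rw [h, h, h, map_add, map_smul]

end Vale.Agent.P181.H911

namespace Vale.Agent.P181.H553

open Vale.Agent.P181 Vale.Agent.P181.H280 Vale.Agent.P181.H179

/-- ROW 1c. Products. -/
theorem HWF.mul {a d₁ d₂ : ℕ} {l₁ l₂ : Fin 3 → ℕ} {f₁ f₂ : Meas → ℂ} (h₁ : HWF a d₁ l₁ f₁)
    (h₂ : HWF a d₂ l₂ f₂) : HWF a (d₁ + d₂) (l₁ + l₂) (f₁ * f₂) := by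
  obtain ⟨x₁, hx₁, e₁⟩ := h₁
  obtain ⟨x₂, hx₂, e₂⟩ := h₂
  obtain ⟨x, hx⟩ := H911.exists_prod (W := Sym[ℂ]^a (Fin 3 → ℂ)) x₁ x₂
  refine ⟨x, ?_, fun c => ?_⟩
  · intro g hg
    have h := H911.prod_eigen (W := Sym[ℂ]^a (Fin 3 → ℂ)) (symMap a (Matrix.toLin' g)) hx
      (hx₁ g hg) (hx₂ g hg)
    have h' : (∏ i, g i i ^ (l₁ + l₂) i) = (∏ i, g i i ^ l₁ i) * ∏ i, g i i ^ l₂ i := by
      simp only [Pi.add_apply, pow_add, Finset.prod_mul_distrib]
    rw [h']
    exact h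
  · rw [Pi.mul_apply, ← e₁, ← e₂]
    exact hx (ev a c)

/-- ROW 1d. Along a line the function is a polynomial. -/
theorem HWF.line {a d : ℕ} {lam : Fin 3 → ℕ} {f : Meas → ℂ} (h : HWF a d lam f) (c c' : Meas) :
    ∃ P : Polynomial ℂ, ∀ τ : ℂ, f (c + τ • c') = P.eval τ := by
  obtain ⟨x, _, e⟩ := h
  obtain ⟨P, hP⟩ := H911.exists_polynomial (W := Sym[ℂ]^a (Fin 3 → ℂ)) x (ev a c) (ev a c')
  refine ⟨P, fun τ => ?_⟩
  rw [← e, H911.ev_add_smul]
  exact hP τ

end Vale.Agent.P181.H553
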