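import Vale.Agent.P181.R2.H959.VDefs
import Mathlib.Algebra.Polynomial.BigOperators
import Mathlib.Algebra.Polynomial.Degree.Operations

/-!
Row V4: the degrees of the three functions on the curve.
-/

set_option autoImplicit false

namespace Vale.Agent.P181.FR

open Vale.Agent.P181 Vale.Agent.P181.H280

theorem lc_add {p q : Polynomial ℝ} (hp : 0 < p.leadingCoeff) (hq : 0 < q.leadingCoeff) :
    0 < (p + q).leadingCoeff ∧ (p + q).natDegree = max p.natDegree q.natDegree := by
  have hp0 : p ≠ 0 := by rintro rfl; simp at hp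
  have hq0 : q ≠ 0 := by rintro rfl; simp at hq
  have h1 : (p + q).degree = max p.degree q.degree :=
    Polynomial.degree_add_eq_of_leadingCoeff_add_ne_zero (by positivity)
  refine ⟨?_, ?_⟩
  · rcases lt_trichotomy p.degree q.degree with h | h | h
    · rw [Polynomial.leadingCoeff_add_of_degree_lt h]; exact hq
    · rw [Polynomial.leadingCoeff_add_of_degree_eq h (by positivity)]; positivity
    · rw [Polynomial.leadingCoeff_add_of_degree_lt' h]; exact hp
  · rw [Polynomial.degree_eq_natDegree hp0, Polynomial.degree_eq_natDegree hq0] at h1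
    refine Polynomial.natDegree_eq_of_degree_eq_some ?_
    rw [h1]
    rcases le_total p.natDegree q.natDegree with h | h
    · rw [max_eq_right h, max_eq_right (by exact_mod_cast h)]
    · rw [max_eq_left h, max_eq_left (by exact_mod_cast h)]

theorem lc_sum {ι : Type} {s : Finset ι} (hs : s.Nonempty) {f : ι → Polynomial ℝ}
    (h : ∀ j ∈ s, 0 < (f j).leadingCoeff) :
    0 < (∑ j ∈ s, f j).leadingCoeff ∧
      (∑ j ∈ s, f j).natDegree = s.sup fun j => (f j).natDegree := by
  classical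
  induction hs using Finset.Nonempty.cons_induction with
  | singleton a => simpa using h a (by simp)
  | cons a s ha hs ih =>
    have h1 := ih fun j hj => h j (by simp [hj])
    have h2 := lc_add (h a (by simp)) h1.1
    rw [Finset.sum_cons, Finset.sup_cons]
    exact ⟨h2.1, by rw [h2.2, h1.2]⟩

theorem lc_prod {ι : Type} {s : Finset ι} {f : ι → Polynomial ℝ}
    (h : ∀ j ∈ s, 0 < (f j).leadingCoeff) :
    0 < (∏ j ∈ s, f j).leadingCoeff ∧
      (∏ j ∈ s, f j).natDegree = ∑ j ∈ s, (f j).natDegree := by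
  refine ⟨?_, Polynomial.natDegree_prod _ _ fun j hj h0 => ?_⟩
  · rw [Polynomial.leadingCoeff_prod]
    exact Finset.prod_pos h
  · have := h j hj
    rw [h0] at this
    simp at this

/-- Row V4 from row V3. -/
theorem G_curve_of {m i : ℕ} (hi : 3 ≤ i) (him : i ≤ m)
    (V3 : ∃ (P : Fin (2 * i - 1) → Fin m → ℂ) (ty : Finset (Fin (2 * i - 1 + 1)) → Fin 3),
      (∃ S ∈ sub i, ty S = 1) ∧ (∃ S ∈ sub i, ty S = 2) ∧ (∃ S ∈ sub i, ty S = 0) ∧
      ∀ La : ℕ, 2 ≤ La → ∃ y : Finset (Fin (2 * i - 1 + 1)) → Polynomial ℝ,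
        (∀ S ∈ sub i, 0 < (y S).leadingCoeff ∧
          (y S).natDegree = if ty S = 0 then 2 * La else if ty S = 1 then 2 * La - 2 else 0) ∧
        ∀ S ∈ sub i, ∀ t : ℝ, YS him S (Fin.snoc (α := fun _ => Fin m → ℂ) P (curve m La t)) =
          (((y S).eval t : ℝ) : ℂ)) :
    ∃ (P : Fin (2 * i - 1) → Fin m → ℂ) (Ny Nz : ℕ), 1 ≤ Ny ∧ 1 ≤ Nz ∧
      Ny + Nz ≤ (2 * i).choose i ∧
      ∀ La : ℕ, 2 ≤ La → ∃ D3 : ℕ, D3 + 2 * Ny + 2 * La * Nz = 2 * La * (2 * i).choose i ∧
      ∃ f1 f2 f3 : Polynomial ℝ, f1.natDegree = 2 * La ∧ f2.natDegree = D3 ∧ f3.natDegree = D3 ∧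
        f1 ≠ 0 ∧ f2 ≠ 0 ∧ f3 ≠ 0 ∧
        ∀ t : ℝ, F1 him (Fin.snoc (α := fun _ => Fin m → ℂ) P (curve m La t)) =
            ((f1.eval t : ℝ) : ℂ) ∧
          F2 him (Fin.snoc (α := fun _ => Fin m → ℂ) P (curve m La t)) =
            ((f2.eval t : ℝ) : ℂ) ∧
          F3 him (Fin.snoc (α := fun _ => Fin m → ℂ) P (curve m La t)) =
            ((f3.eval t : ℝ) : ℂ) := by
  classical
  obtain ⟨P, ty, ⟨S1, hS1, hT1⟩, ⟨S2, hS2, hT2⟩, ⟨S0, hS0, hT0⟩, hy⟩ := V3
  have hcard : (sub i).card = (2 * i).choose i := by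
    rw [sub, Finset.card_powersetCard, Finset.card_univ, Fintype.card_fin]
    congr 1
    omega
  have hne : (sub i).Nonempty := ⟨S1, hS1⟩
  refine ⟨P, ((sub i).filter fun S => ty S = 1).card, ((sub i).filter fun S => ty S = 2).card,
    Finset.card_pos.2 ⟨S1, by simp [hS1, hT1]⟩, Finset.card_pos.2 ⟨S2, by simp [hS2, hT2]⟩, ?_,
    fun La hLa => ?_⟩
  · rw [← hcard, ← Finset.card_union_of_disjoint]
    · exact Finset.card_le_card (Finset.union_subset (Finset.filter_subset _ _)
        (Finset.filter_subset _ _))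
    · rw [Finset.disjoint_filter]
      intro S _ h1 h2
      rw [h1] at h2
      exact absurd h2 (by decide)
  · obtain ⟨y, hy1, hy2⟩ := hy La hLa
    have hlc : ∀ S ∈ sub i, 0 < (y S).leadingCoeff := fun S hS => (hy1 S hS).1
    have hF3 := lc_prod hlc
    have hF1 := lc_sum hne hlc
    have hE : ∀ S ∈ sub i, 0 < (∏ S' ∈ (sub i).erase S, y S').leadingCoeff ∧
        (∏ S' ∈ (sub i).erase S, y S').natDegree =
          ∑ S' ∈ (sub i).erase S, (y S').natDegree := fun S _ =>
      lc_prod fun j hj => hlc j (Finset.mem_of_mem_erase hj)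
    have hF2 := lc_sum hne (f := fun S => ∏ S' ∈ (sub i).erase S, y S') fun S hS => (hE S hS).1
    have hdeg : ∀ S ∈ sub i, (y S).natDegree ≤ 2 * La := by
      intro S hS
      rw [(hy1 S hS).2]
      split_ifs <;> omega
    have d1 : (∑ S ∈ sub i, y S).natDegree = 2 * La := by
      rw [hF1.2]
      refine le_antisymm (Finset.sup_le hdeg) ?_
      have h0 := (hy1 S0 hS0).2
      rw [if_pos hT0] at h0
      rw [← h0]
      exact Finset.le_sup (f := fun S => (y S).natDegree) hS0
    have d2 : (∑ S ∈ sub i, ∏ S' ∈ (sub i).erase S, y S').natDegree =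
        ∑ S ∈ sub i, (y S).natDegree := by
      rw [hF2.2]
      refine le_antisymm (Finset.sup_le fun S hS => ?_) ?_
      · rw [(hE S hS).2, ← Finset.add_sum_erase _ _ hS]
        exact Nat.le_add_left _ _
      · have h2 := (hy1 S2 hS2).2
        rw [hT2] at h2
        have h3 : (y S2).natDegree = 0 := by simpa using h2
        rw [← Finset.add_sum_erase _ _ hS2, h3, zero_add, ← (hE S2 hS2).2]
        exact Finset.le_sup (f := fun S => (∏ S' ∈ (sub i).erase S, y S').natDegree) hS2
    have d3 : (∏ S ∈ sub i, y S).natDegree = ∑ S ∈ sub i, (y S).natDegree := hF3.2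
    refine ⟨∑ S ∈ sub i, (y S).natDegree, ?_, ∑ S ∈ sub i, y S,
      ∑ S ∈ sub i, ∏ S' ∈ (sub i).erase S, y S', ∏ S ∈ sub i, y S, d1, d2, d3, ?_, ?_, ?_,
      fun t => ⟨?_, ?_, ?_⟩⟩
    · rw [← hcard, Finset.card_filter, Finset.card_filter, Finset.mul_sum, Finset.mul_sum,
        ← Finset.sum_add_distrib, ← Finset.sum_add_distrib, Finset.card_eq_sum_ones,
        Finset.mul_sum]
      refine Finset.sum_congr rfl fun S hS => ?_
      rw [(hy1 S hS).2]
      have h3 : ty S = 0 ∨ ty S = 1 ∨ ty S = 2 := by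
        generalize ty S = z
        revert z
        decide
      rcases h3 with h | h | h
      · rw [h]; simp
      · rw [h]; simp; omega
      · rw [h]; simp
    · intro h; rw [h] at hF1; simp at hF1
    · intro h; rw [h] at hF2; simp at hF2
    · intro h; rw [h] at hF3; simp at hF3
    · rw [F1, Polynomial.eval_finsetSum, Complex.ofReal_sum]
      exact Finset.sum_congr rfl fun S hS => hy2 S hS t
    · rw [F2, Polynomial.eval_finsetSum, Complex.ofReal_sum]
      refine Finset.sum_congr rfl fun S hS => ?_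
      rw [Polynomial.eval_prod, Complex.ofReal_prod]
      exact Finset.prod_congr rfl fun S' hS' => hy2 S' (Finset.mem_of_mem_erase hS') t
    · rw [F3, Polynomial.eval_prod, Complex.ofReal_prod]
      exact Finset.prod_congr rfl fun S hS => hy2 S hS t

end Vale.Agent.P181.FR
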